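import Vale.Agent.H65.OTBary
import Vale.Agent.H22.OT.Defs
import Vale.Agent.H22.BBL.OneDim2
import Vale.Agent.H61.BBLInd

/-!
# Barycentre stability for Laguerre cells in Euclidean space

The midpoint inequality `MidIneq volume` on `EuclideanSpace ℝ (Fin d)`, `d ≥ 1`, is deduced from
the Borell-Brascamp-Lieb inequality in transport form (one-dimensional case by helper22,
induction on the dimension by helper61), and the barycentre stability estimate follows from
`bary_stability_of_midIneq`.
-/

namespace Vale.Agent.H65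

open MeasureTheory Set Vale.Agent.H22.OT

/-- The one-dimensional transport form of the Borell-Brascamp-Lieb inequality, in the shape used
by the induction on the dimension. -/
theorem bbl_one : Vale.Agent.H61.BBL.BBLProp ℝ 1 := by
  intro f0 f1 a b h hf0m hf1m hf0 hf1 hf0i hf1i hint ham hbm hMa hMb hhm hyp
  obtain ⟨Ma, hMa⟩ := hMa
  obtain ⟨Mb, hMb⟩ := hMb
  exact Vale.Agent.H22.bblProp_real f0 f1 a b h (max Ma Mb) hf0m hf1m ham hbm hhm hf0 hf1
    hf0i hf1i (fun x => (hMa x).trans (le_max_left _ _))
    (fun x => (hMb x).trans (le_max_right _ _)) hint hyp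

/-- The midpoint inequality holds for Lebesgue measure on `EuclideanSpace ℝ (Fin d)`, `d ≥ 1`. -/
theorem midIneq_euclidean {d : ℕ} (hd : 1 ≤ d) :
    MidIneq (volume : Measure (EuclideanSpace ℝ (Fin d))) := by
  intro A B g a b h hA hB hAb hBb hg hg2 ha hb hCa hCb hh hh0 hhi hmass hyp
  obtain ⟨Ca, hCa⟩ := hCa
  obtain ⟨Cb, hCb⟩ := hCb
  have hAfin : volume A < ⊤ := hAb.measure_lt_top
  have hBfin : volume B < ⊤ := hBb.measure_lt_top
  have hg1 : ∀ x, 0 < 1 + g x := fun x => by
    have := abs_le.1 (hg2 x)
    linarith [this.1]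
  have hgm : Measurable fun x => 1 + g x := measurable_const.add hg
  -- the two densities
  have hf1int : IntegrableOn (fun x => 1 + g x) B volume := by
    refine Measure.integrableOn_of_bounded (M := 3 / 2) hBfin.ne hgm.aestronglyMeasurable ?_
    refine Filter.Eventually.of_forall fun x => ?_
    have := abs_le.1 (hg2 x)
    rw [Real.norm_eq_abs, abs_le]
    constructor <;> linarith [this.1, this.2]
  have key := (Vale.Agent.H61.BBL.BBLProp.euclidean bbl_one d hd).real
    (f0 := A.indicator (fun _ => (1 : ℝ))) (f1 := B.indicator (fun x => 1 + g x))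
    (a := A.indicator a) (b := B.indicator b) (h := h)
    (measurable_const.indicator hA) (hgm.indicator hB)
    (fun x => Set.indicator_nonneg (fun _ _ => zero_le_one) x)
    (fun x => Set.indicator_nonneg (fun x _ => (hg1 x).le) x)
    ((integrable_indicator_iff hA).2 (integrableOn_const hAfin.ne))
    ((integrable_indicator_iff hB).2 hf1int)
    (by
      rw [integral_indicator hA, integral_indicator hB, setIntegral_const, smul_eq_mul, mul_one]
      exact hmass)
    (ha.indicator hA) (hb.indicator hB)
    ⟨|Ca|, fun x => by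
      by_cases hx : x ∈ A
      · rw [Set.indicator_of_mem hx]; exact (hCa x hx).trans (le_abs_self _)
      · rw [Set.indicator_of_notMem hx, abs_zero]; exact abs_nonneg _⟩
    ⟨|Cb|, fun x => by
      by_cases hx : x ∈ B
      · rw [Set.indicator_of_mem hx]; exact (hCb x hx).trans (le_abs_self _)
      · rw [Set.indicator_of_notMem hx, abs_zero]; exact abs_nonneg _⟩
    hh hh0 hhi
    (by
      intro x x' hx hx'
      have hxA : x ∈ A := by
        by_contra hxA
        rw [Set.indicator_of_notMem hxA] at hx
        exact lt_irrefl _ hx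
      have hxB : x' ∈ B := by
        by_contra hxB
        rw [Set.indicator_of_notMem hxB] at hx'
        exact lt_irrefl _ hx'
      rw [Set.indicator_of_mem hxA, Set.indicator_of_mem hxB, Set.indicator_of_mem hxA,
        Set.indicator_of_mem hxB]
      refine (hyp x hxA x' hxB).trans ?_
      refine mul_le_mul_of_nonneg_left ?_ (hh0 _)
      exact Vale.Agent.H61.BBL.one_sub_half_le_Omega hd (by
        have := abs_le.1 (hg2 x')
        linarith [this.1]))
  have e1 : (∫ x, A.indicator a x * A.indicator (fun _ => (1 : ℝ)) x) = ∫ x in A, a x := by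
    rw [← integral_indicator hA]
    refine integral_congr_ae (Filter.Eventually.of_forall fun x => ?_)
    by_cases hx : x ∈ A
    · simp [Set.indicator_of_mem hx]
    · simp [Set.indicator_of_notMem hx]
  have e2 : (∫ x, B.indicator b x * B.indicator (fun x => 1 + g x) x)
      = ∫ x in B, b x * (1 + g x) := by
    rw [← integral_indicator hB]
    refine integral_congr_ae (Filter.Eventually.of_forall fun x => ?_)
    by_cases hx : x ∈ B
    · simp [Set.indicator_of_mem hx]
    · simp [Set.indicator_of_notMem hx]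
  rw [e1, e2] at key
  exact key

/-- **Barycentre stability** for Laguerre cells of a convex body `K` of diameter at most `D` in
`EuclideanSpace ℝ (Fin d)`: if `c₀` is an optimal price vector for the uniform source and `c₁`
for the source `(1 + g) dx`, `|g| ≤ 1/2`, with the same sites and masses, then the first
moments of the cells satisfy `∑ |M¹_j - M⁰_j|² / m_j ≤ 10 D² ∫_K g²`. -/
theorem bary_stability {d : ℕ} (hd : 1 ≤ d) {ι : Type*} [Fintype ι] [Nonempty ι]
    {K : Set (EuclideanSpace ℝ (Fin d))} (hKc : IsCompact K) (hKconv : Convex ℝ K)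
    {D : ℝ} (hD : ∀ x ∈ K, ∀ x' ∈ K, dist x x' ≤ D)
    (g : EuclideanSpace ℝ (Fin d) → ℝ) (hg : Measurable g) (hgb : ∀ x, |g x| ≤ 1 / 2)
    (y : ι → EuclideanSpace ℝ (Fin d)) (hy : Function.Injective y)
    (m : ι → ℝ) (hm : ∀ j, 0 < m j)
    (c₀ c₁ : ι → ℝ) (h₀ : IsOptPrice K 0 y m c₀) (h₁ : IsOptPrice K g y m c₁) :
    ∑ j, ‖(∫ x in lagCell K y c₁ j, (1 + g x) • x) - ∫ x in lagCell K y c₀ j, x‖ ^ 2 / m j
      ≤ 10 * D ^ 2 * ∫ x in K, g x ^ 2 := by
  have _hm := hm
  have h0' : ∀ j, (volume : Measure (EuclideanSpace ℝ (Fin d))).real (cell K y c₀ j) = m j := by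
    intro j
    have := h₀ j
    simp only [Pi.zero_apply, add_zero, setIntegral_const, smul_eq_mul, mul_one] at this
    exact this
  exact bary_stability_of_midIneq (volume : Measure (EuclideanSpace ℝ (Fin d)))
    (midIneq_euclidean hd) hKconv hKc.measurableSet hKc.isBounded hD hy hg hgb c₀ c₁ m h0' h₁

/-- Barycentre stability in every dimension, including `d = 0` (where the space is a point and
both first moments vanish). -/
theorem bary_stability_all {d : ℕ} {ι : Type*} [Fintype ι] [Nonempty ι]
    {K : Set (EuclideanSpace ℝ (Fin d))} (hKc : IsCompact K) (hKconv : Convex ℝ K)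
    {D : ℝ} (hD : ∀ x ∈ K, ∀ x' ∈ K, dist x x' ≤ D)
    (g : EuclideanSpace ℝ (Fin d) → ℝ) (hg : Measurable g) (hgb : ∀ x, |g x| ≤ 1 / 2)
    (y : ι → EuclideanSpace ℝ (Fin d)) (hy : Function.Injective y)
    (m : ι → ℝ) (hm : ∀ j, 0 < m j)
    (c₀ c₁ : ι → ℝ) (h₀ : IsOptPrice K 0 y m c₀) (h₁ : IsOptPrice K g y m c₁) :
    ∑ j, ‖(∫ x in lagCell K y c₁ j, (1 + g x) • x) - ∫ x in lagCell K y c₀ j, x‖ ^ 2 / m j
      ≤ 10 * D ^ 2 * ∫ x in K, g x ^ 2 := by
  rcases Nat.eq_zero_or_pos d with hd | hd
  · subst hd
    have hsub : ∀ x : EuclideanSpace ℝ (Fin 0), x = 0 := fun x => Subsingleton.elim x 0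
    have e1 : ∀ j, (∫ x in lagCell K y c₁ j, (1 + g x) • x) = 0 := by
      intro j
      have : (fun x : EuclideanSpace ℝ (Fin 0) => (1 + g x) • x) = fun _ => 0 := by
        funext x
        rw [hsub x, smul_zero]
      rw [this, integral_zero]
    have e0 : ∀ j, (∫ x in lagCell K y c₀ j, x) = 0 := by
      intro j
      have : (fun x : EuclideanSpace ℝ (Fin 0) => x) = fun _ => 0 := by
        funext x
        exact hsub x
      rw [this, integral_zero]
    simp only [e1, e0, sub_zero, norm_zero, ne_eq, OfNat.ofNat_ne_zero, not_false_eq_true,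
      zero_pow, zero_div, Finset.sum_const_zero]
    exact mul_nonneg (by positivity) (integral_nonneg fun x => sq_nonneg _)
  · exact bary_stability hd hKc hKconv hD g hg hgb y hy m hm c₀ c₁ h₀ h₁

end Vale.Agent.H65
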