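import Vale.Agent.H65.OTCell

/-!
# Barycentre stability of Laguerre cells under perturbation of the source density

Piece A of the proof that the exponent one third is admissible in problem P074
(after helper22): from a midpoint (Borell-Brascamp-Lieb type) inequality we derive
that the first moments of the Laguerre cells are stable in a weighted `L²` sense when
the source density `1` is replaced by `1 + g`.
-/

namespace Vale.Agent.H65

open MeasureTheory

section weight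

variable {E : Type*} [NormedAddCommGroup E]

/-- The weight `η(x) = (D² - |x - x0|²)/2`. -/
noncomputable def eta (D : ℝ) (x0 x : E) : ℝ := (D ^ 2 - ‖x - x0‖ ^ 2) / 2

theorem eta_nonneg {D : ℝ} {x0 x : E} (h : dist x x0 ≤ D) : 0 ≤ eta D x0 x := by
  rw [dist_eq_norm] at h
  have h0 : 0 ≤ ‖x - x0‖ := norm_nonneg _
  unfold eta
  nlinarith

theorem eta_le (D : ℝ) (x0 x : E) : eta D x0 x ≤ D ^ 2 / 2 := by
  unfold eta
  nlinarith [sq_nonneg ‖x - x0‖]

theorem measurable_eta [MeasurableSpace E] [BorelSpace E] (D : ℝ) (x0 : E) :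
    Measurable (eta D x0) := by
  unfold eta
  fun_prop

end weight

section aux

theorem integral_lin3 {X : Type*} [MeasurableSpace X] (ν : Measure X) {f₁ f₂ f₃ : X → ℝ}
    (h₁ : Integrable f₁ ν) (h₂ : Integrable f₂ ν) (h₃ : Integrable f₃ ν) (α β γ : ℝ) :
    ∫ x, (α * f₁ x + β * f₂ x + γ * f₃ x) ∂ν
      = α * ∫ x, f₁ x ∂ν + β * ∫ x, f₂ x ∂ν + γ * ∫ x, f₃ x ∂ν := by
  have e1 := integral_add ((h₁.const_mul α).add (h₂.const_mul β)) (h₃.const_mul γ)
  have e2 := integral_add (h₁.const_mul α) (h₂.const_mul β)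
  simp only [Pi.add_apply] at e1
  rw [e1, e2, integral_const_mul, integral_const_mul, integral_const_mul]

theorem intOn_bdd {X : Type*} [MeasurableSpace X] {F : Type*} [NormedAddCommGroup F]
    {μ : Measure X} {s : Set X}
    (hs : μ s ≠ ⊤) (hsm : MeasurableSet s) {f : X → F} (hf : AEStronglyMeasurable f μ)
    (C : ℝ) (hC : ∀ x ∈ s, ‖f x‖ ≤ C) : IntegrableOn f s μ :=
  Measure.integrableOn_of_bounded hs hf
    ((ae_restrict_iff' hsm).2 (Filter.Eventually.of_forall hC))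

end aux

section pointwise

variable {E : Type*} [NormedAddCommGroup E] [InnerProductSpace ℝ E]

theorem scalar_ineq (s Q γ D : ℝ) (hQ : |Q| ≤ s * D) :
    0 ≤ s ^ 2 / 16 - γ * Q / 4 + D ^ 2 * γ ^ 2 / 4 := by
  have h1 : γ * Q ≤ |γ| * (s * D) := by
    calc γ * Q ≤ |γ * Q| := le_abs_self _
      _ = |γ| * |Q| := abs_mul _ _
      _ ≤ |γ| * (s * D) := mul_le_mul_of_nonneg_left hQ (abs_nonneg _)
  have h2 : γ ^ 2 = |γ| ^ 2 := (sq_abs γ).symm
  nlinarith [sq_nonneg (s / 4 - D * |γ| / 2)]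

theorem pointwise_core (D γ : ℝ) (p p' v : E)
    (h34 : ‖(1 / 4 : ℝ) • p + (3 / 4 : ℝ) • p'‖ ≤ D) :
    (D ^ 2 - ‖p‖ ^ 2) / 2 / 2 - inner ℝ v p / 8 - ‖v‖ ^ 2 / 16
      + ((D ^ 2 - ‖p'‖ ^ 2) / 2 * (1 - γ) / 2 - D ^ 2 / 4 * γ ^ 2 + inner ℝ v p' / 8)
      ≤ (D ^ 2 - ‖(1 / 2 : ℝ) • (p + p')‖ ^ 2) / 2 * (1 - γ / 2) := by
  have hm : ‖(1 / 2 : ℝ) • (p + p')‖ ^ 2 = (‖p‖ ^ 2 + 2 * inner ℝ p p' + ‖p'‖ ^ 2) / 4 := by
    rw [norm_smul, mul_pow, norm_add_sq_real]
    norm_num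
    ring
  have hs : ‖p' - p‖ ^ 2 = ‖p'‖ ^ 2 - 2 * inner ℝ p p' + ‖p‖ ^ 2 := by
    rw [norm_sub_sq_real, real_inner_comm]
  have hv : 0 ≤ ‖p' - p‖ ^ 2 - 2 * (inner ℝ v p' - inner ℝ v p) + ‖v‖ ^ 2 := by
    have h := sq_nonneg ‖p' - p - v‖
    rw [norm_sub_sq_real, inner_sub_left, real_inner_comm v p', real_inner_comm v p] at h
    linarith
  have hQ : |inner ℝ (p' - p) ((1 / 4 : ℝ) • p + (3 / 4 : ℝ) • p')| ≤ ‖p' - p‖ * D :=
    (abs_real_inner_le_norm _ _).trans (mul_le_mul_of_nonneg_left h34 (norm_nonneg _))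
  have hQe : inner ℝ (p' - p) ((1 / 4 : ℝ) • p + (3 / 4 : ℝ) • p')
      = (3 * ‖p'‖ ^ 2 - 2 * inner ℝ p p' - ‖p‖ ^ 2) / 4 := by
    simp only [inner_sub_left, inner_add_right, inner_smul_right, real_inner_self_eq_norm_sq]
    rw [real_inner_comm p p']
    ring
  have h2 := scalar_ineq ‖p' - p‖ _ γ D hQ
  rw [hQe, hs] at h2
  rw [hs] at hv
  rw [hm]
  nlinarith [h2, hv]

theorem pointwise_ineq {K : Set E} (hK : Convex ℝ K) {D : ℝ} {x0 : E}
    (hD : ∀ x ∈ K, dist x x0 ≤ D) {x x' : E} (hx : x ∈ K) (hx' : x' ∈ K) (v : E) (γ : ℝ) :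
    eta D x0 x / 2 - inner ℝ v x / 8 - ‖v‖ ^ 2 / 16
      + (eta D x0 x' * (1 - γ) / 2 - D ^ 2 / 4 * γ ^ 2 + inner ℝ v x' / 8)
      ≤ eta D x0 ((1 / 2 : ℝ) • (x + x')) * (1 - γ / 2) := by
  have hmem : (1 / 4 : ℝ) • x + (3 / 4 : ℝ) • x' ∈ K :=
    hK hx hx' (by norm_num) (by norm_num) (by norm_num)
  have h34 : ‖(1 / 4 : ℝ) • (x - x0) + (3 / 4 : ℝ) • (x' - x0)‖ ≤ D := by
    have := hD _ hmem
    rw [dist_eq_norm] at this
    have e : (1 / 4 : ℝ) • (x - x0) + (3 / 4 : ℝ) • (x' - x0)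
        = (1 / 4 : ℝ) • x + (3 / 4 : ℝ) • x' - x0 := by
      simp only [smul_sub]
      have : x0 = (1 / 4 : ℝ) • x0 + (3 / 4 : ℝ) • x0 := by
        rw [← add_smul]; norm_num
      nth_rewrite 3 [this]
      abel
    rwa [e]
  have h := pointwise_core D γ (x - x0) (x' - x0) v h34
  have e2 : (1 / 2 : ℝ) • (x - x0 + (x' - x0)) = (1 / 2 : ℝ) • (x + x') - x0 := by
    have : x0 = (1 / 2 : ℝ) • (x0 + x0) := by
      rw [← two_smul ℝ x0, smul_smul]; norm_num
    nth_rewrite 3 [this]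
    simp only [smul_add, smul_sub]
    abel
  rw [e2] at h
  simp only [eta]
  simp only [inner_sub_right] at h
  linarith


theorem moment_identity (M0 M1 : E) (m : ℝ) :
    -(1 / 8) * inner ℝ ((1 / m) • (M1 - M0)) M0 - ‖(1 / m) • (M1 - M0)‖ ^ 2 / 16 * m
      + (1 / 8) * inner ℝ ((1 / m) • (M1 - M0)) M1 = (1 / 16) * (‖M1 - M0‖ ^ 2 / m) := by
  by_cases hm : m = 0
  · subst hm
    simp
  · have e1 : inner ℝ ((1 / m) • (M1 - M0)) M1 - inner ℝ ((1 / m) • (M1 - M0)) M0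
        = (1 / m) * ‖M1 - M0‖ ^ 2 := by
      rw [← inner_sub_right, real_inner_smul_left, real_inner_self_eq_norm_sq]
    have e2 : ‖(1 / m) • (M1 - M0)‖ ^ 2 = (1 / m) ^ 2 * ‖M1 - M0‖ ^ 2 := by
      rw [norm_smul, mul_pow, Real.norm_eq_abs, sq_abs]
    rw [e2]
    have e3 : -(1 / 8) * inner ℝ ((1 / m) • (M1 - M0)) M0
        + (1 / 8) * inner ℝ ((1 / m) • (M1 - M0)) M1 = (1 / 8) * ((1 / m) * ‖M1 - M0‖ ^ 2) := by
      rw [← e1]; ring
    have e4 : (1 / m) ^ 2 * ‖M1 - M0‖ ^ 2 / 16 * m = (1 / 16) * ((1 / m) * ‖M1 - M0‖ ^ 2) := by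
      field_simp
    have e5 : ‖M1 - M0‖ ^ 2 / m = (1 / m) * ‖M1 - M0‖ ^ 2 := by ring
    rw [e5]
    linarith

end pointwise

section main

variable {E : Type*} [NormedAddCommGroup E] [InnerProductSpace ℝ E]
variable [FiniteDimensional ℝ E] [MeasurableSpace E] [BorelSpace E]
variable {ι : Type*}

/-- The midpoint inequality (a special case of the transport form of the
Borell-Brascamp-Lieb inequality) for the measure `μ`: if `A` has the same `μ`-mass as
`B` has for the density `1 + g`, and `a x + b x' ≤ h ((x + x')/2) (1 - g x'/2)` on `A × B`,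
then `∫_A a + ∫_B b (1 + g) ≤ ∫ h`. -/
def MidIneq (μ : Measure E) : Prop :=
  ∀ (A B : Set E) (g a b h : E → ℝ), MeasurableSet A → MeasurableSet B →
    Bornology.IsBounded A → Bornology.IsBounded B →
    Measurable g → (∀ x, |g x| ≤ 1 / 2) → Measurable a → Measurable b →
    (∃ C, ∀ x ∈ A, |a x| ≤ C) → (∃ C, ∀ x ∈ B, |b x| ≤ C) →
    Measurable h → (∀ x, 0 ≤ h x) → Integrable h μ →
    μ.real A = ∫ x in B, (1 + g x) ∂μ →
    (∀ x ∈ A, ∀ x' ∈ B, a x + b x' ≤ h ((1 / 2 : ℝ) • (x + x')) * (1 - g x' / 2)) →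
    (∫ x in A, a x ∂μ) + (∫ x in B, b x * (1 + g x) ∂μ) ≤ ∫ x, h x ∂μ

/-- The inequality obtained from the midpoint inequality for one cell. -/
theorem cell_ineq (μ : Measure E) [μ.IsAddHaarMeasure] (hmid : MidIneq μ) [Finite ι]
    {K : Set E} (hKc : Convex ℝ K) (hKm : MeasurableSet K) (hKb : Bornology.IsBounded K)
    {D : ℝ} {x0 : E} (hD : ∀ x ∈ K, dist x x0 ≤ D)
    (y : ι → E) {g : E → ℝ} (hg : Measurable g) (hg2 : ∀ x, |g x| ≤ 1 / 2)
    (c0 c1 : ι → ℝ) (j : ι)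
    (hmass : μ.real (cell K y c0 j) = ∫ x in cell K y c1 j, (1 + g x) ∂μ) (v : E) :
    (1 / 2) * (∫ x in cell K y c0 j, eta D x0 x ∂μ)
      - (1 / 8) * inner ℝ v (∫ x in cell K y c0 j, x ∂μ)
      - ‖v‖ ^ 2 / 16 * μ.real (cell K y c0 j)
      + ((1 / 2) * (∫ x in cell K y c1 j, eta D x0 x * (1 - g x ^ 2) ∂μ)
        - D ^ 2 / 4 * (∫ x in cell K y c1 j, g x ^ 2 * (1 + g x) ∂μ)
        + (1 / 8) * inner ℝ v (∫ x in cell K y c1 j, (1 + g x) • x ∂μ))
      ≤ ∫ x in cell K y (fun k => (c0 k + c1 k) / 2) j, eta D x0 x ∂μ := by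
  set A := cell K y c0 j with hA
  set B := cell K y c1 j with hB
  set Cm := cell K y (fun k => (c0 k + c1 k) / 2) j with hCm
  have hAm : MeasurableSet A := measurableSet_cell hKm y c0 j
  have hBm : MeasurableSet B := measurableSet_cell hKm y c1 j
  have hCmm : MeasurableSet Cm := measurableSet_cell hKm y _ j
  have hAK : A ⊆ K := cell_subset K y c0 j
  have hBK : B ⊆ K := cell_subset K y c1 j
  have hCK : Cm ⊆ K := cell_subset K y _ j
  have hAfin : μ A ≠ ⊤ := (hKb.subset hAK).measure_lt_top.ne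
  have hBfin : μ B ≠ ⊤ := (hKb.subset hBK).measure_lt_top.ne
  have hCfin : μ Cm ≠ ⊤ := (hKb.subset hCK).measure_lt_top.ne
  obtain ⟨R, hR⟩ := hKb.exists_norm_le
  have hR0 : ∀ x ∈ K, 0 ≤ R := fun x hx => (norm_nonneg x).trans (hR x hx)
  have hg_lo : ∀ x, -(1 / 2) ≤ g x := fun x => (abs_le.1 (hg2 x)).1
  have hg_hi : ∀ x, g x ≤ 1 / 2 := fun x => (abs_le.1 (hg2 x)).2
  have heta_abs : ∀ x ∈ K, |eta D x0 x| ≤ D ^ 2 / 2 := fun x hx => by
    rw [abs_of_nonneg (eta_nonneg (hD x hx))]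
    exact eta_le D x0 x
  have hinner_abs : ∀ x ∈ K, |inner ℝ v x| ≤ ‖v‖ * R := fun x hx =>
    (abs_real_inner_le_norm v x).trans (mul_le_mul_of_nonneg_left (hR x hx) (norm_nonneg v))
  -- the functions
  let a : E → ℝ := fun x => (1 / 2) * eta D x0 x + (-(1 / 8)) * inner ℝ v x
    + (-(‖v‖ ^ 2 / 16)) * 1
  let b : E → ℝ := fun x => eta D x0 x * (1 - g x) / 2 - D ^ 2 / 4 * g x ^ 2 + inner ℝ v x / 8
  let h : E → ℝ := Cm.indicator (eta D x0)
  have hmeta : Measurable (eta D x0) := measurable_eta D x0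
  have hminner : Measurable (fun x : E => inner ℝ v x) := by fun_prop
  have ha : Measurable a := by fun_prop
  have hb : Measurable b := by fun_prop
  have hh : Measurable h := hmeta.indicator hCmm
  have hh0 : ∀ x, 0 ≤ h x := fun x => by
    by_cases hx : x ∈ Cm
    · simp only [h, Set.indicator_of_mem hx]
      exact eta_nonneg (hD x (hCK hx))
    · simp only [h, Set.indicator_of_notMem hx, le_refl]
  have hetaC : IntegrableOn (eta D x0) Cm μ :=
    intOn_bdd hCfin hCmm hmeta.aestronglyMeasurable (D ^ 2 / 2)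
      (fun x hx => by rw [Real.norm_eq_abs]; exact heta_abs x (hCK hx))
  have hhint : Integrable h μ := (integrable_indicator_iff hCmm).2 hetaC
  have habd : ∃ C, ∀ x ∈ A, |a x| ≤ C := by
    refine ⟨D ^ 2 / 4 + ‖v‖ * R / 8 + ‖v‖ ^ 2 / 16, fun x hx => ?_⟩
    have h1 := abs_le.1 (heta_abs x (hAK hx))
    have h2 := abs_le.1 (hinner_abs x (hAK hx))
    have h3 : 0 ≤ ‖v‖ ^ 2 := sq_nonneg _
    simp only [a]
    rw [abs_le]
    constructor <;> linarith [h1.1, h1.2, h2.1, h2.2]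
  have hbbd : ∃ C, ∀ x ∈ B, |b x| ≤ C := by
    refine ⟨D ^ 2 / 2 * (3 / 2) / 2 + D ^ 2 / 4 * (1 / 4) + ‖v‖ * R / 8, fun x hx => ?_⟩
    have h1 := abs_le.1 (heta_abs x (hBK hx))
    have h2 := abs_le.1 (hinner_abs x (hBK hx))
    have h3 := hg_lo x
    have h4 := hg_hi x
    have h5 : g x ^ 2 ≤ 1 / 4 := by nlinarith
    have h6 : 0 ≤ g x ^ 2 := sq_nonneg _
    have h7 : 0 ≤ eta D x0 x := eta_nonneg (hD x (hBK hx))
    have h8 : 0 ≤ D ^ 2 := sq_nonneg _
    simp only [b]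
    rw [abs_le]
    constructor
    · nlinarith [h1.1, h1.2, h2.1, h2.2]
    · nlinarith [h1.1, h1.2, h2.1, h2.2]
  have hpt : ∀ x ∈ A, ∀ x' ∈ B, a x + b x' ≤ h ((1 / 2 : ℝ) • (x + x')) * (1 - g x' / 2) := by
    intro x hx x' hx'
    have hmem : (1 / 2 : ℝ) • (x + x') ∈ Cm := midpoint_mem_cell hKc y c0 c1 j hx hx'
    have hp := pointwise_ineq hKc hD (hAK hx) (hBK hx') v (g x')
    simp only [h, Set.indicator_of_mem hmem, a, b]
    linarith
  have key := hmid A B g a b h hAm hBm (hKb.subset hAK) (hKb.subset hBK) hg hg2 ha hb habd hbbd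
    hh hh0 hhint hmass hpt
  -- integrability on A
  have hetaA : IntegrableOn (eta D x0) A μ :=
    intOn_bdd hAfin hAm hmeta.aestronglyMeasurable (D ^ 2 / 2)
      (fun x hx => by rw [Real.norm_eq_abs]; exact heta_abs x (hAK hx))
  have hinnA : IntegrableOn (fun x : E => inner ℝ v x) A μ :=
    intOn_bdd hAfin hAm hminner.aestronglyMeasurable (‖v‖ * R)
      (fun x hx => by rw [Real.norm_eq_abs]; exact hinner_abs x (hAK hx))
  have honeA : IntegrableOn (fun _ : E => (1 : ℝ)) A μ :=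
    intOn_bdd hAfin hAm aestronglyMeasurable_const 1 (fun x _ => by simp)
  have hidA : IntegrableOn (fun x : E => x) A μ :=
    intOn_bdd hAfin hAm measurable_id.aestronglyMeasurable R (fun x hx => hR x (hAK hx))
  have eA : ∫ x in A, a x ∂μ = (1 / 2) * (∫ x in A, eta D x0 x ∂μ)
      + (-(1 / 8)) * inner ℝ v (∫ x in A, x ∂μ) + (-(‖v‖ ^ 2 / 16)) * μ.real A := by
    have e := integral_lin3 (μ.restrict A) hetaA hinnA honeA (1 / 2) (-(1 / 8))
      (-(‖v‖ ^ 2 / 16))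
    have e2 : ∫ x in A, inner ℝ v x ∂μ = inner ℝ v (∫ x in A, x ∂μ) := integral_inner hidA v
    have e3 : ∫ _ in A, (1 : ℝ) ∂μ = μ.real A := by
      rw [setIntegral_const, smul_eq_mul, mul_one]
    rw [e2, e3] at e
    exact e
  -- integrability on B
  have h1B : IntegrableOn (fun x : E => eta D x0 x * (1 - g x ^ 2)) B μ := by
    refine intOn_bdd hBfin hBm (by fun_prop : Measurable _).aestronglyMeasurable (D ^ 2 / 2)
      (fun x hx => ?_)
    rw [Real.norm_eq_abs, abs_mul]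
    have h1 := heta_abs x (hBK hx)
    have h3 := hg_lo x
    have h4 := hg_hi x
    have h5 : |1 - g x ^ 2| ≤ 1 := by
      rw [abs_le]; constructor <;> nlinarith
    calc |eta D x0 x| * |1 - g x ^ 2| ≤ D ^ 2 / 2 * 1 :=
          mul_le_mul h1 h5 (abs_nonneg _) (by positivity)
      _ = D ^ 2 / 2 := mul_one _
  have h2B : IntegrableOn (fun x : E => g x ^ 2 * (1 + g x)) B μ := by
    refine intOn_bdd hBfin hBm (by fun_prop : Measurable _).aestronglyMeasurable 1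
      (fun x hx => ?_)
    rw [Real.norm_eq_abs]
    have h3 := hg_lo x
    have h4 := hg_hi x
    rw [abs_le]; constructor <;> nlinarith [sq_nonneg (g x)]
  have hvecB : IntegrableOn (fun x : E => (1 + g x) • x) B μ := by
    refine intOn_bdd hBfin hBm (by fun_prop : Measurable _).aestronglyMeasurable (3 / 2 * R)
      (fun x hx => ?_)
    rw [norm_smul, Real.norm_eq_abs]
    have h3 := hg_lo x
    have h4 := hg_hi x
    have h5 : |1 + g x| ≤ 3 / 2 := by
      rw [abs_le]; constructor <;> linarith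
    exact mul_le_mul h5 (hR x (hBK hx)) (norm_nonneg _) (by norm_num)
  have h3B : IntegrableOn (fun x : E => inner ℝ v ((1 + g x) • x)) B μ :=
    hvecB.const_inner v
  have eB : ∫ x in B, b x * (1 + g x) ∂μ
      = (1 / 2) * (∫ x in B, eta D x0 x * (1 - g x ^ 2) ∂μ)
        + (-(D ^ 2 / 4)) * (∫ x in B, g x ^ 2 * (1 + g x) ∂μ)
        + (1 / 8) * inner ℝ v (∫ x in B, (1 + g x) • x ∂μ) := by
    have e := integral_lin3 (μ.restrict B) h1B h2B h3B (1 / 2) (-(D ^ 2 / 4)) (1 / 8)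
    have e2 : ∫ x in B, inner ℝ v ((1 + g x) • x) ∂μ
        = inner ℝ v (∫ x in B, (1 + g x) • x ∂μ) := integral_inner hvecB v
    rw [e2] at e
    rw [← e]
    congr 1
    funext x
    simp only [b, inner_smul_right]
    ring
  have eh : ∫ x, h x ∂μ = ∫ x in Cm, eta D x0 x ∂μ := integral_indicator hCmm
  rw [eA, eB, eh] at key
  linarith

/-- **Barycentre stability** (conditional on the midpoint inequality for `μ`): if the cells
for the prices `c0` have `μ`-masses `m j` and the cells for the prices `c1` have masses `m j`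
for the density `1 + g`, `|g| ≤ 1/2`, then the first moments of the cells satisfy
`∑ |M¹_j - M⁰_j|² / m_j ≤ 10 D² ∫_K g²`, where `D` bounds the diameter of the convex set `K`. -/
theorem bary_stability_of_midIneq (μ : Measure E) [μ.IsAddHaarMeasure] (hmid : MidIneq μ)
    [Fintype ι] {K : Set E} (hKc : Convex ℝ K) (hKm : MeasurableSet K)
    (hKb : Bornology.IsBounded K) {D : ℝ} (hD : ∀ x ∈ K, ∀ x' ∈ K, dist x x' ≤ D)
    {y : ι → E} (hy : Function.Injective y) {g : E → ℝ} (hg : Measurable g)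
    (hg2 : ∀ x, |g x| ≤ 1 / 2) (c0 c1 : ι → ℝ) (m : ι → ℝ)
    (h0 : ∀ j, μ.real (cell K y c0 j) = m j)
    (h1 : ∀ j, ∫ x in cell K y c1 j, (1 + g x) ∂μ = m j) :
    ∑ j, ‖(∫ x in cell K y c1 j, (1 + g x) • x ∂μ) - ∫ x in cell K y c0 j, x ∂μ‖ ^ 2 / m j
      ≤ 10 * D ^ 2 * ∫ x in K, g x ^ 2 ∂μ := by
  rcases isEmpty_or_nonempty ι with hι | hι
  · simp only [Finset.univ_eq_empty, Finset.sum_empty]
    exact mul_nonneg (by positivity) (integral_nonneg (fun x => sq_nonneg _))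
  -- a base point
  obtain ⟨x0, hx0⟩ : ∃ x0 : E, ∀ x ∈ K, dist x x0 ≤ D := by
    by_cases hKne : K.Nonempty
    · exact ⟨hKne.some, fun x hx => hD x hx _ hKne.some_mem⟩
    · exact ⟨0, fun x hx => absurd ⟨x, hx⟩ hKne⟩
  have hKfin : μ K ≠ ⊤ := hKb.measure_lt_top.ne
  have hg_lo : ∀ x, -(1 / 2) ≤ g x := fun x => (abs_le.1 (hg2 x)).1
  have hg_hi : ∀ x, g x ≤ 1 / 2 := fun x => (abs_le.1 (hg2 x)).2
  have hmeta : Measurable (eta D x0) := measurable_eta D x0
  have heta_abs : ∀ x ∈ K, |eta D x0 x| ≤ D ^ 2 / 2 := fun x hx => by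
    rw [abs_of_nonneg (eta_nonneg (hx0 x hx))]
    exact eta_le D x0 x
  -- integrability on K
  have i1 : IntegrableOn (eta D x0) K μ :=
    intOn_bdd hKfin hKm hmeta.aestronglyMeasurable (D ^ 2 / 2)
      (fun x hx => by rw [Real.norm_eq_abs]; exact heta_abs x hx)
  have i2 : IntegrableOn (fun x : E => eta D x0 x * (1 - g x ^ 2)) K μ := by
    refine intOn_bdd hKfin hKm (by fun_prop : Measurable _).aestronglyMeasurable (D ^ 2 / 2)
      (fun x hx => ?_)
    rw [Real.norm_eq_abs, abs_mul]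
    have h1' := heta_abs x hx
    have h3 := hg_lo x
    have h4 := hg_hi x
    have h5 : |1 - g x ^ 2| ≤ 1 := by
      rw [abs_le]; constructor <;> nlinarith
    calc |eta D x0 x| * |1 - g x ^ 2| ≤ D ^ 2 / 2 * 1 :=
          mul_le_mul h1' h5 (abs_nonneg _) (by positivity)
      _ = D ^ 2 / 2 := mul_one _
  have i3 : IntegrableOn (fun x : E => g x ^ 2 * (1 + g x)) K μ := by
    refine intOn_bdd hKfin hKm (by fun_prop : Measurable _).aestronglyMeasurable 1
      (fun x hx => ?_)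
    rw [Real.norm_eq_abs]
    have h3 := hg_lo x
    have h4 := hg_hi x
    rw [abs_le]; constructor <;> nlinarith [sq_nonneg (g x)]
  have i4 : IntegrableOn (fun x : E => g x ^ 2) K μ := by
    refine intOn_bdd hKfin hKm (by fun_prop : Measurable _).aestronglyMeasurable 1
      (fun x hx => ?_)
    rw [Real.norm_eq_abs]
    have h3 := hg_lo x
    have h4 := hg_hi x
    rw [abs_le]; constructor <;> nlinarith [sq_nonneg (g x)]
  -- the inequality for each cell
  have hcell : ∀ j, (1 / 2) * (∫ x in cell K y c0 j, eta D x0 x ∂μ)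
      + (1 / 2) * (∫ x in cell K y c1 j, eta D x0 x * (1 - g x ^ 2) ∂μ)
      + (-(D ^ 2 / 4)) * (∫ x in cell K y c1 j, g x ^ 2 * (1 + g x) ∂μ)
      + (1 / 16) * (‖(∫ x in cell K y c1 j, (1 + g x) • x ∂μ)
          - ∫ x in cell K y c0 j, x ∂μ‖ ^ 2 / m j)
      ≤ ∫ x in cell K y (fun k => (c0 k + c1 k) / 2) j, eta D x0 x ∂μ := by
    intro j
    have hmass : μ.real (cell K y c0 j) = ∫ x in cell K y c1 j, (1 + g x) ∂μ := by
      rw [h0 j, h1 j]
    have hc := cell_ineq μ hmid hKc hKm hKb hx0 y hg hg2 c0 c1 j hmass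
      ((1 / m j) • ((∫ x in cell K y c1 j, (1 + g x) • x ∂μ) - ∫ x in cell K y c0 j, x ∂μ))
    have hid := moment_identity (∫ x in cell K y c0 j, x ∂μ)
      (∫ x in cell K y c1 j, (1 + g x) • x ∂μ) (m j)
    rw [h0 j] at hc
    linarith
  have hsum := Finset.sum_le_sum (fun j (_ : j ∈ Finset.univ) => hcell j)
  simp only [Finset.sum_add_distrib, ← Finset.mul_sum] at hsum
  rw [sum_integral_cell μ hKm hy c0 i1, sum_integral_cell μ hKm hy c1 i2,
    sum_integral_cell μ hKm hy c1 i3, sum_integral_cell μ hKm hy _ i1] at hsum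
  -- the remaining integral inequality
  have hfin : (1 / 2) * (∫ x in K, eta D x0 x ∂μ)
      + (-(1 / 2)) * (∫ x in K, eta D x0 x * (1 - g x ^ 2) ∂μ)
      + (D ^ 2 / 4) * (∫ x in K, g x ^ 2 * (1 + g x) ∂μ)
      ≤ (5 / 8 * D ^ 2) * ∫ x in K, g x ^ 2 ∂μ := by
    rw [← integral_lin3 (μ.restrict K) i1 i2 i3, ← integral_const_mul]
    refine setIntegral_mono_on ?_ (i4.const_mul _) hKm (fun x hx => ?_)
    · exact ((i1.const_mul (1 / 2)).add (i2.const_mul (-(1 / 2)))).add (i3.const_mul (D ^ 2 / 4))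
    · have h3 := hg_lo x
      have h4 := hg_hi x
      have h5 := eta_nonneg (hx0 x hx)
      have h6 := eta_le D x0 x
      have h7 : 0 ≤ g x ^ 2 := sq_nonneg _
      have h8 : 0 ≤ D ^ 2 := sq_nonneg _
      have h9 : eta D x0 x * g x ^ 2 ≤ D ^ 2 / 2 * g x ^ 2 :=
        mul_le_mul_of_nonneg_right h6 h7
      have h10 : D ^ 2 * (g x ^ 2 * g x) ≤ D ^ 2 * (g x ^ 2 * (1 / 2)) :=
        mul_le_mul_of_nonneg_left (mul_le_mul_of_nonneg_left h4 h7) h8
      nlinarith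
  linarith

end main

end Vale.Agent.H65
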