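import Mathlib

/-!
# Laguerre cells (power diagram) in a finite dimensional inner product space

Helper file for problem P074 (piece A of the proof of the exponent one third).
-/

namespace Vale.Agent.H65

open MeasureTheory

variable {E : Type*} [NormedAddCommGroup E] [InnerProductSpace ℝ E]
variable {ι : Type*}

/-- The Laguerre cell of the atom `y j` with prices `c` inside `K`: the points of `K`
where the affine function `x ↦ ⟨x, y j⟩ - c j` is maximal among all atoms. -/
def cell (K : Set E) (y : ι → E) (c : ι → ℝ) (j : ι) : Set E :=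
  {x | x ∈ K ∧ ∀ k, inner ℝ x (y k) - c k ≤ inner ℝ x (y j) - c j}

theorem cell_subset (K : Set E) (y : ι → E) (c : ι → ℝ) (j : ι) : cell K y c j ⊆ K :=
  fun _ hx => hx.1

theorem iUnion_cell [Finite ι] [Nonempty ι] (K : Set E) (y : ι → E) (c : ι → ℝ) :
    ⋃ j, cell K y c j = K := by
  apply Set.Subset.antisymm
  · exact Set.iUnion_subset (fun j => cell_subset K y c j)
  · intro x hx
    obtain ⟨j, hj⟩ := Finite.exists_max (fun k => inner ℝ x (y k) - c k)
    exact Set.mem_iUnion.2 ⟨j, hx, hj⟩

/-- Midpoints of points of the cells for prices `c0` and `c1` lie in the cell for the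
average prices. -/
theorem midpoint_mem_cell {K : Set E} (hK : Convex ℝ K) (y : ι → E) (c0 c1 : ι → ℝ) (j : ι)
    {x x' : E} (hx : x ∈ cell K y c0 j) (hx' : x' ∈ cell K y c1 j) :
    (1 / 2 : ℝ) • (x + x') ∈ cell K y (fun k => (c0 k + c1 k) / 2) j := by
  refine ⟨?_, fun k => ?_⟩
  · have := hK hx.1 hx'.1 (by norm_num : (0 : ℝ) ≤ 1 / 2) (by norm_num : (0 : ℝ) ≤ 1 / 2)
      (by norm_num)
    rwa [← smul_add] at this
  · have h1 := hx.2 k
    have h2 := hx'.2 k
    simp only [real_inner_smul_left, inner_add_left]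
    linarith

section measure

variable [MeasurableSpace E] [BorelSpace E]

theorem measurableSet_cell [Finite ι] {K : Set E} (hK : MeasurableSet K) (y : ι → E)
    (c : ι → ℝ) (j : ι) : MeasurableSet (cell K y c j) := by
  have : cell K y c j = K ∩ ⋂ k, {x | inner ℝ x (y k) - c k ≤ inner ℝ x (y j) - c j} := by
    ext x
    simp [cell]
  rw [this]
  refine hK.inter (MeasurableSet.iInter fun k => ?_)
  apply measurableSet_le
  · fun_prop
  · fun_prop

variable [FiniteDimensional ℝ E]

theorem hyperplane_null (μ : Measure E) [μ.IsAddHaarMeasure] {w : E} (hw : w ≠ 0) (t : ℝ) :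
    μ {x | inner ℝ x w = t} = 0 := by
  let S : Submodule ℝ E := LinearMap.ker (innerₛₗ ℝ w)
  let p : E := (t / ‖w‖ ^ 2) • w
  have hwn : ‖w‖ ^ 2 ≠ 0 := by
    have : ‖w‖ ≠ 0 := norm_ne_zero_iff.2 hw
    positivity
  have hset : {x : E | inner ℝ x w = t} = (AffineSubspace.mk' p S : Set E) := by
    ext x
    simp only [Set.mem_ofPred_eq, SetLike.mem_coe, AffineSubspace.mem_mk', S, LinearMap.mem_ker,
      innerₛₗ_apply_apply, vsub_eq_sub, inner_sub_right, p, inner_smul_right,
      real_inner_self_eq_norm_sq]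
    rw [real_inner_comm]
    constructor
    · intro h
      rw [h]
      field_simp
      ring
    · intro h
      have h2 : t / ‖w‖ ^ 2 * ‖w‖ ^ 2 = t := by field_simp
      linarith
  rw [hset]
  apply Measure.addHaar_affineSubspace
  intro htop
  have hmem : p + w ∈ AffineSubspace.mk' p S := by
    rw [htop]
    exact AffineSubspace.mem_top ℝ E _
  rw [AffineSubspace.mem_mk'] at hmem
  simp only [vsub_eq_sub, add_sub_cancel_left, S, LinearMap.mem_ker, innerₛₗ_apply_apply,
    real_inner_self_eq_norm_sq] at hmem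
  exact hwn hmem

theorem aedisjoint_cell (μ : Measure E) [μ.IsAddHaarMeasure] (K : Set E) {y : ι → E}
    (hy : Function.Injective y) (c : ι → ℝ) {j k : ι} (hjk : j ≠ k) :
    AEDisjoint μ (cell K y c j) (cell K y c k) := by
  have hw : y j - y k ≠ 0 := sub_ne_zero.2 (fun h => hjk (hy h))
  refine measure_mono_null ?_ (hyperplane_null μ hw (c j - c k))
  intro x hx
  have h1 := hx.1.2 k
  have h2 := hx.2.2 j
  simp only [Set.mem_ofPred_eq, inner_sub_right]
  linarith

/-- The integrals over the cells add up to the integral over `K`. -/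
theorem sum_integral_cell {F : Type*} [NormedAddCommGroup F] [NormedSpace ℝ F]
    [Fintype ι] [Nonempty ι] (μ : Measure E) [μ.IsAddHaarMeasure] {K : Set E}
    (hK : MeasurableSet K) {y : ι → E} (hy : Function.Injective y) (c : ι → ℝ)
    {f : E → F} (hf : IntegrableOn f K μ) :
    ∑ j, ∫ x in cell K y c j, f x ∂μ = ∫ x in K, f x ∂μ := by
  have h := integral_iUnion_ae (μ := μ) (f := f) (s := fun j => cell K y c j)
    (fun j => (measurableSet_cell hK y c j).nullMeasurableSet)
    (fun j k hjk => aedisjoint_cell μ K hy c hjk)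
    (by rw [iUnion_cell]; exact hf)
  rw [iUnion_cell, tsum_fintype] at h
  exact h.symm

end measure

end Vale.Agent.H65
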